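import Vale.Agent.P267.H556.Pair

/-!
# P267, package CHI-NEG: `χ(L) ≤ 0` for every line bundle on a class VII surface

For a holomorphic line bundle `(L, a)` on a compact connected surface `X` and a `∂̄`-closed
`(0,1)`-form `β`, the sets `S₀ = {z | H⁰(L, a + zβ) ≠ 0}` and
`S₂ = {z | H⁰(K ⊗ L^*, -(a + zβ)) ≠ 0}` are closed, disjoint (there is no holomorphic two-form)
and different from `ℂ`. As `ℂ` is connected, there is `z` outside both sets; then
`χ(L) = χ(L, a + zβ) = -h¹ ≤ 0`.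
-/

set_option linter.unusedSectionVars false

open scoped Manifold ContDiff ComplexConjugate Matrix ComplexOrder
open Set Filter Topology

noncomputable section

namespace Vale.Agent.P267.H556

open Vale.Agent.P267.FL Vale.Agent.P267.RR

/-- Two disjoint closed proper subsets of `ℂ` do not cover `ℂ`. -/
theorem exists_notMem_notMem {S₀ S₂ : Set ℂ} (h0 : IsClosed S₀) (h2 : IsClosed S₂)
    (hd : Disjoint S₀ S₂) (hn0 : ∃ z, z ∉ S₀) (hn2 : ∃ z, z ∉ S₂) : ∃ z, z ∉ S₀ ∧ z ∉ S₂ := by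
  by_contra h
  push Not at h
  have hc : S₀ = S₂ᶜ := by
    ext z
    constructor
    · intro hz hz2
      exact Set.disjoint_left.1 hd hz hz2
    · intro hz
      by_contra hz0
      exact hz (h z hz0)
  have hopen : IsOpen S₀ := hc ▸ h2.isOpen_compl
  rcases isClopen_iff.1 ⟨h0, hopen⟩ with h1 | h1
  · obtain ⟨z, hz⟩ := hn2
    apply hz
    apply h z
    rw [h1]
    exact notMem_empty z
  · obtain ⟨z, hz⟩ := hn0
    exact hz (h1 ▸ mem_univ z)

variable {X : Type} [TopologicalSpace X] [ChartedSpace C2 X] [IsManifold 𝓘(ℂ, C2) ω X]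
variable {ι : Type} [Fintype ι] [DecidableEq ι]

/-- identity theorem for the holomorphic sections of `K^κ ⊗ L` -/
def IdentStmt (L : LB X ι) (a : X → Fin 2 → ℂ) (κ : ℤ) : Prop :=
  ∀ s ∈ H0 L a κ, ∀ U : Set X, IsOpen U → U.Nonempty → (∀ x ∈ U, s x = 0) → s = 0

/-- A product of nonzero sections is nonzero. -/
theorem eq_zero_or {κ κ' : ℤ} {L : LB X ι} {a : X → Fin 2 → ℂ}
    (hK : ∀ u : X → ℂ, Reg0 ∞ (κ' + κ) u → dbar0 (κ' + κ) u = 0 → u = 0)
    (hid : IdentStmt L.dual (-a) κ') (hcont : ∀ s ∈ H0 L a κ, IsOpen {x | s x ≠ 0})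
    {t s : X → EuclideanSpace ℂ ι} (ht : t ∈ H0 L.dual (-a) κ') (hs : s ∈ H0 L a κ) :
    t = 0 ∨ s = 0 := by
  by_cases h : s = 0
  · exact Or.inr h
  · left
    obtain ⟨x, hx⟩ : ∃ x, s x ≠ 0 := by
      by_contra h'
      push Not at h'
      exact h (funext h')
    refine hid t ht {x | s x ≠ 0} (hcont s hs) ⟨x, hx⟩ fun y hy => ?_
    exact (eq_zero_or_of_pairing hK ht hs y).resolve_right hy

/-- The set where a section of class `C^n` does not vanish is open. -/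
theorem isOpen_ne {n : WithTop ℕ∞} {κ : ℤ} {s : X → EuclideanSpace ℂ ι} (hs : Reg0 n κ s) :
    IsOpen {x | s x ≠ 0} := by
  rw [isOpen_iff_mem_nhds]
  intro x hx
  set e := chartAt C2 x with he'
  have he : e ∈ atlas C2 X := chart_mem_atlas C2 x
  have hxs : x ∈ e.source := mem_chart_source C2 x
  have hc : ContinuousAt (loc0 κ e s) (e x) :=
    (hs.contDiffAt he (e.map_source hxs)).continuousAt
  have h0 : loc0 κ e s (e x) ≠ 0 := by
    rw [he', loc0_chartAt]; exact hx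
  have h1 : ∀ᶠ z in 𝓝 (e x), loc0 κ e s z ≠ 0 := hc.eventually_ne h0
  have h2 : ∀ᶠ y in 𝓝 x, loc0 κ e s (e y) ≠ 0 := (e.continuousAt hxs).eventually h1
  filter_upwards [h2, e.open_source.mem_nhds hxs] with y hy hye hy0
  apply hy
  rw [loc0_source hye]
  change (jac e y).det ^ κ • s y = 0
  have : s y = 0 := hy0
  rw [this, smul_zero]

/-- the set of parameters with a nonzero holomorphic section -/
def S0 (L : LB X ι) (a β : X → Fin 2 → ℂ) (κ : ℤ) : Set ℂ := {z | H0 L (a + z • β) κ ≠ ⊥}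

/-- the set of parameters with a nonzero holomorphic section of the Serre dual -/
def S2 (L : LB X ι) (a β : X → Fin 2 → ℂ) (κ : ℤ) : Set ℂ :=
  {z | H0 L.dual (-(a + z • β)) (1 - κ) ≠ ⊥}

theorem exists_twist {L : LB X ι} {a β : X → Fin 2 → ℂ} {κ : ℤ}
    (hK : ∀ u : X → ℂ, Reg0 ∞ 1 u → dbar0 1 u = 0 → u = 0)
    (hid : ∀ z : ℂ, IdentStmt L.dual (-(a + z • β)) (1 - κ))
    (h0 : IsClosed (S0 L a β κ)) (h2 : IsClosed (S2 L a β κ))
    (hn0 : ∃ z, z ∉ S0 L a β κ) (hn2 : ∃ z, z ∉ S2 L a β κ) :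
    ∃ z : ℂ, H0 L (a + z • β) κ = ⊥ ∧ H0 L.dual (-(a + z • β)) (1 - κ) = ⊥ := by
  have hd : Disjoint (S0 L a β κ) (S2 L a β κ) := by
    rw [Set.disjoint_left]
    intro z hz0 hz2
    obtain ⟨s, hs, hs0⟩ := Submodule.exists_mem_ne_zero_of_ne_bot hz0
    obtain ⟨t, ht, ht0⟩ := Submodule.exists_mem_ne_zero_of_ne_bot hz2
    have h1 : (1 - κ) + κ = 1 := by ring
    rcases eq_zero_or (κ := κ) (κ' := 1 - κ) (by rw [h1]; exact hK) (hid z)
      (fun s hs => isOpen_ne ((mem_H0 _ _ _).1 hs).1.1) ht hs with h | h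
    · exact ht0 h
    · exact hs0 h
  obtain ⟨z, hz0, hz2⟩ := exists_notMem_notMem h0 h2 hd hn0 hn2
  exact ⟨z, not_not.1 hz0, not_not.1 hz2⟩

/-- With Serre duality: some twist has nonpositive Euler characteristic. -/
theorem exists_chi_nonpos {L : LB X ι} {a β : X → Fin 2 → ℂ} {κ : ℤ} (hSerre : SerreStmt X)
    (hhol : ∀ z : ℂ, L.IsHol (a + z • β))
    (hK : ∀ u : X → ℂ, Reg0 ∞ 1 u → dbar0 1 u = 0 → u = 0)
    (hid : ∀ z : ℂ, IdentStmt L.dual (-(a + z • β)) (1 - κ))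
    (h0 : IsClosed (S0 L a β κ)) (h2 : IsClosed (S2 L a β κ))
    (hn0 : ∃ z, z ∉ S0 L a β κ) (hn2 : ∃ z, z ∉ S2 L a β κ) :
    ∃ z : ℂ, chi L (a + z • β) κ ≤ 0 := by
  obtain ⟨z, hz0, hz2⟩ := exists_twist hK hid h0 h2 hn0 hn2
  refine ⟨z, ?_⟩
  have e0 : RR.h0 L (a + z • β) κ = 0 := by
    rw [RR.h0, hz0]; exact finrank_bot ℂ _
  have e2 : RR.h2 L (a + z • β) κ = 0 := by
    rw [(hSerre ι L (a + z • β) (hhol z) κ).2.2, RR.h0, hz2]; exact finrank_bot ℂ _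
  rw [chi, e0, e2]
  simp

/-- **`L·L ≤ L·K`** for every holomorphic line bundle, from Riemann-Roch with `χ(𝒪) = 0`. -/
theorem isec_le {ι' : Type} [Fintype ι'] [DecidableEq ι'] {L : LB X ι} {LK : LB X ι'}
    (hLK : IsCanon LK) {a β : X → Fin 2 → ℂ} (hSerre : SerreStmt X) (hRR : RRStmt X)
    (hO : chi (OX X) 0 0 = 0) (hhol : ∀ z : ℂ, L.IsHol (a + z • β))
    (hK : ∀ u : X → ℂ, Reg0 ∞ 1 u → dbar0 1 u = 0 → u = 0)
    (hid : ∀ z : ℂ, IdentStmt L.dual (-(a + z • β)) 1)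
    (h0 : IsClosed (S0 L a β 0)) (h2 : IsClosed (S2 L a β 0))
    (hn0 : ∃ z, z ∉ S0 L a β 0) (hn2 : ∃ z, z ∉ S2 L a β 0) :
    (isec L L).re ≤ (isec L LK).re := by
  obtain ⟨z, hz⟩ := exists_chi_nonpos (κ := 0) hSerre hhol hK (by simpa using hid) h0 h2 hn0 hn2
  have h1 := hRR ι ι' L (a + z • β) LK (hhol z) hLK
  rw [hO] at h1
  have h3 := congrArg Complex.re h1
  simp only [Int.cast_zero, zero_add, Complex.intCast_re] at h3
  have h4 : ((isec L L - isec L LK) / 2).re = ((isec L L).re - (isec L LK).re) / 2 := by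
    rw [show (2 : ℂ) = ((2 : ℝ) : ℂ) by norm_num, Complex.div_ofReal_re, Complex.sub_re]
  rw [h4] at h3
  have h5 : ((chi L (a + z • β) 0 : ℤ) : ℝ) ≤ 0 := by exact_mod_cast hz
  linarith

end Vale.Agent.P267.H556
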