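import Mathlib

/-!
# P267, package CHI-NEG (CN1): analytic Fredholm alternative for kernels

`exists_left_quasiInverse`: `1 + K`, `K` compact, has a left inverse modulo finite rank.
`kernel_frequently`: the set of parameters with nonzero kernel is locally everything or discrete.
`kernel_discrete`: the global version.
-/

open Filter Topology

noncomputable section

namespace Vale.Agent.P267.H556

variable {V : Type*} [NormedAddCommGroup V] [NormedSpace ℂ V]

theorem finiteDimensional_ker (K : V →L[ℂ] V) (hK : IsCompactOperator K) :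
    FiniteDimensional ℂ (1 + K : V →L[ℂ] V).ker := by
  set N := (1 + K : V →L[ℂ] V).ker with hN
  have hmem : ∀ v ∈ N, K v = -v := by
    intro v hv
    have : v + K v = 0 := by simpa [hN, LinearMap.mem_ker] using hv
    exact (neg_eq_of_add_eq_zero_right this).symm
  have hclosed : IsClosed (N : Set V) := (1 + K : V →L[ℂ] V).isClosed_ker
  have hV : ∀ v ∈ N, (K : V →ₗ[ℂ] V) v ∈ N := by
    intro v hv
    have := hmem v hv
    simp only [ContinuousLinearMap.coe_coe, this]
    exact N.neg_mem hv
  have h1 : IsCompactOperator ((K : V →ₗ[ℂ] V).restrict hV) :=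
    IsCompactOperator.restrict (f := (K : V →ₗ[ℂ] V)) hK hV hclosed
  have h2 := h1.neg
  refine FiniteDimensional.of_isCompactOperator_id (𝕜 := ℂ) (E := N) ?_
  have h3 : (id : N → N) = -⇑((K : V →ₗ[ℂ] V).restrict hV) := by
    funext v
    apply Subtype.ext
    have := hmem v v.2
    simp [LinearMap.restrict_apply, this]
  rw [h3]
  exact h2

variable [CompleteSpace V]

theorem finiteDimensional_quotient (K : V →L[ℂ] V) (hK : IsCompactOperator K) :
    FiniteDimensional ℂ (V ⧸ (1 + K : V →L[ℂ] V).range) := by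
  have hN := finiteDimensional_ker K hK
  set N := (1 + K : V →L[ℂ] V).ker with hNdef
  set R := (1 + K : V →L[ℂ] V).range with hR
  by_cases h : Module.rank ℂ N ≤ Module.rank ℂ (V ⧸ R)
  · obtain ⟨J, hJ⟩ := rank_le_iff_exists_linearMap.1 h
    obtain ⟨sec, hsec⟩ := R.mkQ.exists_rightInverse_of_surjective R.range_mkQ
    obtain ⟨π, hπ⟩ := Submodule.ClosedComplemented.of_finiteDimensional N
    let J' : N →L[ℂ] V := LinearMap.toContinuousLinearMap (sec ∘ₗ J)
    have hJ' : ∀ n, R.mkQ (J' n) = J n := by
      intro n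
      have := congrArg (fun g => g (J n)) hsec
      simpa [J'] using this
    let K' : V →L[ℂ] V := K + J' ∘L π
    have hK' : IsCompactOperator K' := by
      have h1 : IsCompactOperator (J' ∘L π) := by
        have : IsCompactOperator π := isCompactOperator_of_locallyCompactSpace_dom π
        exact this.clm_comp J'
      exact hK.add h1
    have hinj : ∀ s, s + K' s = 0 → s = 0 := by
      intro s hs
      have h1 : (1 + K : V →L[ℂ] V) s + J' (π s) = 0 := by
        simpa [K', add_assoc] using hs
      have h2 : J (π s) = 0 := by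
        have h3 := congrArg R.mkQ h1
        rw [map_add, hJ', map_zero] at h3
        have h4 : R.mkQ ((1 + K : V →L[ℂ] V) s) = 0 := by
          rw [Submodule.mkQ_apply, Submodule.Quotient.mk_eq_zero]
          exact ⟨s, rfl⟩
        rwa [h4, zero_add] at h3
      have h5 : π s = 0 := hJ (by rw [h2, map_zero])
      have h6 : s ∈ N := by
        rw [hNdef, LinearMap.mem_ker]
        simpa [h5] using h1
      have h7 := hπ ⟨s, h6⟩
      have h8 : (⟨s, h6⟩ : N) = 0 := by rw [← h7]; exact h5
      simpa using congrArg Subtype.val h8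
    have hsurj : Function.Surjective (1 + K' : V →L[ℂ] V) := by
      rcases hK'.hasEigenvalue_or_mem_resolventSet (μ := (-1 : ℂ)) (by norm_num) with h1 | h1
      · exfalso
        obtain ⟨v, hv⟩ := h1.exists_hasEigenvector
        have h2 : K' v = (-1 : ℂ) • v := hv.apply_eq_smul
        refine hv.2 (hinj v ?_)
        rw [h2]; simp
      · rw [spectrum.mem_resolventSet_iff, ← IsUnit.neg_iff,
          ContinuousLinearMap.isUnit_iff_bijective] at h1
        convert! h1.2 using 1
        ext x
        simp [add_comm]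
    have htop : LinearMap.range J = ⊤ := by
      rw [eq_top_iff]
      intro q _
      obtain ⟨v, rfl⟩ := R.mkQ_surjective q
      obtain ⟨s, hs⟩ := hsurj v
      refine ⟨π s, ?_⟩
      rw [← hJ', ← hs]
      have h1 : (1 + K' : V →L[ℂ] V) s = (1 + K : V →L[ℂ] V) s + J' (π s) := by
        simp [K', add_assoc]
      rw [h1, map_add]
      have h4 : R.mkQ ((1 + K : V →L[ℂ] V) s) = 0 := by
        rw [Submodule.mkQ_apply, Submodule.Quotient.mk_eq_zero]
        exact ⟨s, rfl⟩
      rw [h4, zero_add]
    exact Module.Finite.of_surjective J (LinearMap.range_eq_top.1 htop)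
  · push Not at h
    exact Module.rank_lt_aleph0_iff.1 (h.trans (Module.rank_lt_aleph0 ℂ N))

/-- `1 + K`, `K` compact, is invertible from the left modulo finite rank. -/
theorem exists_left_quasiInverse (K : V →L[ℂ] V) (hK : IsCompactOperator K) :
    ∃ B F : V →L[ℂ] V, FiniteDimensional ℂ F.range ∧ B ∘L (1 + K) = 1 - F := by
  have hN := finiteDimensional_ker K hK
  have hQ := finiteDimensional_quotient K hK
  set N := (1 + K : V →L[ℂ] V).ker with hNdef
  set R := (1 + K : V →L[ℂ] V).range with hR
  obtain ⟨π, hπ⟩ := Submodule.ClosedComplemented.of_finiteDimensional N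
  obtain ⟨C, hC⟩ := R.exists_isCompl
  have hCfin : FiniteDimensional ℂ C :=
    Module.Finite.equiv (Submodule.quotientEquivOfIsCompl R C hC)
  let Z : Submodule ℂ V := π.ker
  have hZc : IsClosed (Z : Set V) := π.isClosed_ker
  have : CompleteSpace Z := hZc.completeSpace_coe
  let Φ : (Z × C) →L[ℂ] V :=
    ContinuousLinearMap.coprod ((1 + K : V →L[ℂ] V) ∘L Z.subtypeL) C.subtypeL
  have hπN : ∀ s, (1 + K : V →L[ℂ] V) (π s : V) = 0 := by
    intro s
    exact LinearMap.mem_ker.1 (π s).2
  have hsub : ∀ s : V, s - (π s : V) ∈ Z := by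
    intro s
    change s - (π s : V) ∈ π.ker
    rw [LinearMap.mem_ker]
    simp only [ContinuousLinearMap.coe_coe, map_sub, hπ, sub_self]
  have hker : Φ.ker = ⊥ := by
    rw [LinearMap.ker_eq_bot']
    rintro ⟨z, c⟩ hzc
    have h1 : (1 + K : V →L[ℂ] V) (z : V) + (c : V) = 0 := by simpa [Φ] using hzc
    have h2 : (c : V) ∈ R := by
      have : (c : V) = (1 + K : V →L[ℂ] V) (-(z : V)) := by
        rw [map_neg]; exact (neg_eq_of_add_eq_zero_right h1).symm
      rw [this]; exact ⟨_, rfl⟩
    have h3 : (c : V) = 0 := by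
      have := hC.disjoint.le_bot ⟨h2, c.2⟩
      simpa using this
    have h4 : (z : V) ∈ N := by
      rw [hNdef, LinearMap.mem_ker]; simpa [h3] using h1
    have h5 : π (z : V) = ⟨z, h4⟩ := hπ ⟨z, h4⟩
    have h6 : π (z : V) = 0 := z.2
    have h7 : (z : V) = 0 := by
      rw [h6] at h5
      simpa using (congrArg Subtype.val h5).symm
    ext
    · exact h7
    · exact h3
  have hrange : Φ.range = ⊤ := by
    rw [eq_top_iff]
    intro v _
    have : v ∈ R ⊔ C := by rw [hC.sup_eq_top]; trivial
    obtain ⟨r, ⟨s, rfl⟩, c, hc, rfl⟩ := Submodule.mem_sup.1 this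
    refine ⟨(⟨s - π s, hsub s⟩, ⟨c, hc⟩), ?_⟩
    simp only [Φ, ContinuousLinearMap.coprod_apply, ContinuousLinearMap.coe_coe,
      ContinuousLinearMap.comp_apply, Submodule.subtypeL_apply, map_sub, hπN, sub_zero]
  let e : (Z × C) ≃L[ℂ] V := ContinuousLinearEquiv.ofBijective Φ hker hrange
  let B : V →L[ℂ] V := Z.subtypeL ∘L (ContinuousLinearMap.fst ℂ Z C) ∘L (e.symm : V →L[ℂ] Z × C)
  refine ⟨B, N.subtypeL ∘L π, ?_, ?_⟩
  · have : (N.subtypeL ∘L π).range ≤ N := by
      rintro _ ⟨s, rfl⟩
      exact (π s).2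
    exact Submodule.finiteDimensional_of_le this
  · ext s
    have h1 : e (⟨s - π s, hsub s⟩, 0) = (1 + K : V →L[ℂ] V) s := by
      simp only [e, ContinuousLinearEquiv.coeFn_ofBijective, Φ, ContinuousLinearMap.coprod_apply,
        ContinuousLinearMap.comp_apply, Submodule.subtypeL_apply, map_sub, hπN, sub_zero, map_zero,
        add_zero]
    have h2 : e.symm ((1 + K : V →L[ℂ] V) s) = (⟨s - π s, hsub s⟩, 0) := by
      rw [← h1, ContinuousLinearEquiv.symm_apply_apply]
    have h3 : (B ∘L (1 + K)) s = s - π s := by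
      simp only [B, ContinuousLinearMap.comp_apply, ContinuousLinearEquiv.coe_coe]
      rw [h2]
      simp
    rw [h3]
    simp

end Vale.Agent.P267.H556
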