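import Vale.Agent.P267.H556.Fred

/-!
# P267, package CHI-NEG (CN1), part 2: discreteness of the parameters with nonzero kernel
-/

open Filter Topology

noncomputable section

namespace Vale.Agent.P267.H556

/-- If all `d × d` minors of a family of rows of length `d` vanish, then the rows have a common
nonzero kernel vector. -/
theorem exists_ne_zero_of_minors {ι : Type*} {d : ℕ} (m : ι → Fin d → ℂ)
    (h : ∀ r : Fin d → ι, (Matrix.of fun k j => m (r k) j).det = 0) :
    ∃ c : Fin d → ℂ, c ≠ 0 ∧ ∀ i, ∑ j, m i j * c j = 0 := by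
  by_cases hS : Submodule.span ℂ (Set.range m) = ⊤
  · exfalso
    obtain ⟨f, hf, -, hli⟩ := Submodule.exists_fun_fin_finrank_span_eq ℂ (Set.range m)
    have hd : Module.finrank ℂ (Submodule.span ℂ (Set.range m)) = d := by
      rw [hS]; simp
    choose r hr using hf
    let e : Fin d ≃ Fin (Module.finrank ℂ (Submodule.span ℂ (Set.range m))) := finCongr hd.symm
    have hli' : LinearIndependent ℂ (f ∘ e) := hli.comp e e.injective
    have hdet := h (r ∘ e)
    have hM : (Matrix.of fun k j => m ((r ∘ e) k) j) = Matrix.of (f ∘ e) := by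
      ext k j
      simp [hr]
    rw [hM] at hdet
    have hunit : IsUnit (Matrix.of (f ∘ e)) := by
      rw [← Matrix.linearIndependent_rows_iff_isUnit]
      exact hli'
    rw [Matrix.isUnit_iff_isUnit_det, hdet] at hunit
    exact not_isUnit_zero hunit
  · obtain ⟨φ, hφ, hle⟩ := Submodule.exists_le_ker_of_lt_top _ (lt_top_iff_ne_top.2 hS)
    refine ⟨fun j => φ (Pi.single j 1), ?_, fun i => ?_⟩
    · intro h0
      apply hφ
      apply LinearMap.pi_ext'
      intro j
      ext
      simpa using congrFun h0 j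
    · have h1 : φ (m i) = 0 := by
        have := hle (Submodule.subset_span ⟨i, rfl⟩ : m i ∈ Submodule.span ℂ (Set.range m))
        exact LinearMap.mem_ker.1 this
      rw [LinearMap.pi_apply_eq_sum_univ φ (m i)] at h1
      rw [← h1]
      refine Finset.sum_congr rfl fun j _ => ?_
      rw [smul_eq_mul]
      have h2 : (Pi.single j 1 : Fin d → ℂ) = fun k => if j = k then 1 else 0 := by
        funext k
        simp [Pi.single_apply, eq_comm]
      simp only [h2]

variable {V : Type*} [NormedAddCommGroup V] [NormedSpace ℂ V] [CompleteSpace V]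

/-- Local alternative: for an analytic family of kernels contained in the kernels of an analytic
family `1 + K z` with `K z` compact, if the kernel is nonzero for parameters accumulating at `z₀`,
then it is nonzero for all parameters near `z₀`. -/
theorem kernel_frequently {ι : Type*} (K : ℂ → V →L[ℂ] V) (hKd : Differentiable ℂ K)
    (hK : ∀ z, IsCompactOperator (K z)) (l : ι → ℂ → V →L[ℂ] ℂ)
    (hl : ∀ i, Differentiable ℂ (l i))
    (hN : ∀ z s, (∀ i, l i z s = 0) → s + K z s = 0) (z₀ : ℂ)
    (hf : ∃ᶠ z in 𝓝[≠] z₀, ∃ s, s ≠ 0 ∧ ∀ i, l i z s = 0) :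
    ∀ᶠ z in 𝓝 z₀, ∃ s, s ≠ 0 ∧ ∀ i, l i z s = 0 := by
  obtain ⟨B, F, hF, hBF⟩ := exists_left_quasiInverse (K z₀) (hK z₀)
  let A : ℂ → V →L[ℂ] V := fun z => 1 + B * (K z - K z₀)
  have hA : Differentiable ℂ A := by
    intro z
    exact ((hKd z).sub_const (K z₀)).const_mul B |>.const_add 1
  have hA0 : A z₀ = 1 := by simp [A]
  have hAu : ∀ᶠ z in 𝓝 z₀, IsUnit (A z) := by
    have h1 : {x : V →L[ℂ] V | IsUnit x} ∈ 𝓝 (A z₀) :=
      Units.isOpen.mem_nhds (by rw [hA0]; exact isUnit_one)
    exact (hA z₀).continuousAt h1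
  obtain ⟨r, hr, hball⟩ := Metric.eventually_nhds_iff_ball.1 hAu
  set W := Metric.ball z₀ r with hW
  let G : ℂ → V →L[ℂ] V := fun z => Ring.inverse (A z)
  have hG : DifferentiableOn ℂ G W := fun z hz =>
    ((hA z).inverse (hball z hz)).differentiableWithinAt
  have hGA : ∀ z ∈ W, ∀ s, G z (A z s) = s := by
    intro z hz s
    have := Ring.inverse_mul_cancel (A z) (hball z hz)
    exact congrArg (fun T : V →L[ℂ] V => T s) this
  have hAG : ∀ z ∈ W, ∀ s, A z (G z s) = s := by
    intro z hz s
    have := Ring.mul_inverse_cancel (A z) (hball z hz)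
    exact congrArg (fun T : V →L[ℂ] V => T s) this
  -- elements of the kernel come from the finite dimensional range of `F`
  have hker : ∀ z ∈ W, ∀ s, (∀ i, l i z s = 0) → s = G z (F s) := by
    intro z hz s hs
    have h1 : s + K z s = 0 := hN z s hs
    have h2 : B (s + K z₀ s) = s - F s := by
      have := congrArg (fun T : V →L[ℂ] V => T s) hBF
      simpa using this
    have h3 : A z s = F s := by
      have h4 : K z s - K z₀ s = (s + K z s) - (s + K z₀ s) := by abel
      have h5 : A z s = s + B (K z s - K z₀ s) := by simp [A]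
      rw [h5, h4, h1, zero_sub, map_neg, h2]
      abel
    rw [← h3, hGA z hz]
  let U := F.range
  let d := Module.finrank ℂ U
  let b : Module.Basis (Fin d) ℂ U := Module.finBasis ℂ U
  let M : ι → ℂ → Fin d → ℂ := fun i z j => l i z (G z (b j : V))
  have hMd : ∀ i j, DifferentiableOn ℂ (fun z => M i z j) W := by
    intro i j
    exact (hl i).differentiableOn.clm_apply (hG.clm_apply (differentiableOn_const _))
  -- a nonzero kernel element gives a nonzero kernel vector of `M`
  have hto : ∀ z ∈ W, (∃ s, s ≠ 0 ∧ ∀ i, l i z s = 0) →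
      ∃ c : Fin d → ℂ, c ≠ 0 ∧ ∀ i, ∑ j, M i z j * c j = 0 := by
    rintro z hz ⟨s, hs0, hs⟩
    have hsG := hker z hz s hs
    let u : U := ⟨F s, ⟨s, rfl⟩⟩
    have hu : ∑ j, (b.repr u j) • (b j : V) = F s := by
      have h1 : ((∑ j, b.repr u j • b j : U) : V) = F s := by rw [b.sum_repr u]
      rw [← h1, Submodule.coe_sum]
      rfl
    refine ⟨fun j => b.repr u j, ?_, fun i => ?_⟩
    · intro h0
      apply hs0
      have : F s = 0 := by
        rw [← hu]
        refine Finset.sum_eq_zero fun j _ => ?_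
        rw [show b.repr u j = 0 from congrFun h0 j, zero_smul]
      rw [hsG, this, map_zero]
    · have h1 : l i z s = ∑ j, M i z j * b.repr u j := by
        conv_lhs => rw [hsG, ← hu, map_sum, map_sum]
        refine Finset.sum_congr rfl fun j _ => ?_
        simp [M, mul_comm]
      rw [← h1, hs i]
  have hfrom : ∀ z ∈ W, (∃ c : Fin d → ℂ, c ≠ 0 ∧ ∀ i, ∑ j, M i z j * c j = 0) →
      ∃ s, s ≠ 0 ∧ ∀ i, l i z s = 0 := by
    rintro z hz ⟨c, hc, hcM⟩
    refine ⟨G z (∑ j, c j • (b j : V)), ?_, fun i => ?_⟩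
    · intro h0
      have h1 : (∑ j, c j • (b j : V)) = 0 := by
        rw [← hAG z hz (∑ j, c j • (b j : V)), h0, map_zero]
      have h2 : ∑ j, c j • b j = 0 := by
        apply Subtype.ext
        simpa using h1
      exact hc (funext fun j => Fintype.linearIndependent_iff.1 b.linearIndependent c h2 j)
    · rw [map_sum, map_sum, ← hcM i]
      refine Finset.sum_congr rfl fun j _ => ?_
      simp [M, mul_comm]
  have hminor : ∀ q : Fin d → ι, ∀ z ∈ W, (Matrix.of fun k j => M (q k) z j).det = 0 := by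
    intro q
    have hdiff : DifferentiableOn ℂ (fun z => (Matrix.of fun k j => M (q k) z j).det) W := by
      simp only [Matrix.det_apply, Matrix.of_apply]
      refine DifferentiableOn.fun_sum fun σ _ => ?_
      refine DifferentiableOn.const_smul ?_ _
      exact DifferentiableOn.fun_finsetProd fun k _ => hMd _ _
    have han := hdiff.analyticOnNhd Metric.isOpen_ball
    have hfreq : ∃ᶠ z in 𝓝[≠] z₀, (Matrix.of fun k j => M (q k) z j).det = 0 := by
      have hWev : ∀ᶠ z in 𝓝[≠] z₀, z ∈ W :=
        eventually_nhdsWithin_of_eventually_nhds (Metric.ball_mem_nhds z₀ hr)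
      refine (hf.and_eventually hWev).mono ?_
      rintro z ⟨hz, hzW⟩
      obtain ⟨c, hc, hcM⟩ := hto z hzW hz
      refine Matrix.exists_mulVec_eq_zero_iff.1 ⟨c, hc, ?_⟩
      funext k
      simpa [Matrix.mulVec, dotProduct] using hcM (q k)
    exact han.eqOn_zero_of_preconnected_of_frequently_eq_zero
      (convex_ball z₀ r).isPreconnected (Metric.mem_ball_self hr) hfreq
  filter_upwards [Metric.ball_mem_nhds z₀ hr] with z hz
  exact hfrom z hz (exists_ne_zero_of_minors (fun i j => M i z j) fun q => hminor q z hz)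

/-- Global alternative: if the kernel is zero for one parameter, then the parameters with nonzero
kernel are isolated. -/
theorem kernel_discrete {ι : Type*} (K : ℂ → V →L[ℂ] V) (hKd : Differentiable ℂ K)
    (hK : ∀ z, IsCompactOperator (K z)) (l : ι → ℂ → V →L[ℂ] ℂ)
    (hl : ∀ i, Differentiable ℂ (l i))
    (hN : ∀ z s, (∀ i, l i z s = 0) → s + K z s = 0)
    (h0 : ∃ z₁, ∀ s, (∀ i, l i z₁ s = 0) → s = 0) (z₀ : ℂ) :
    ∀ᶠ z in 𝓝[≠] z₀, ∀ s, (∀ i, l i z s = 0) → s = 0 := by
  let P : ℂ → Prop := fun z => ∃ s, s ≠ 0 ∧ ∀ i, l i z s = 0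
  let S : Set ℂ := {z₀ | ∃ᶠ z in 𝓝[≠] z₀, P z}
  have hlocal : ∀ z₀ ∈ S, ∀ᶠ z in 𝓝 z₀, P z := fun z₀ hz₀ =>
    kernel_frequently K hKd hK l hl hN z₀ hz₀
  have hopen : IsOpen S := by
    rw [isOpen_iff_mem_nhds]
    intro z hz
    have h1 := (hlocal z hz).eventually_nhds
    filter_upwards [h1] with w hw
    exact (eventually_nhdsWithin_of_eventually_nhds hw).frequently
  have hclosed : IsClosed S := by
    rw [← isOpen_compl_iff, isOpen_iff_mem_nhds]
    intro z hz
    have h1 : ∀ᶠ w in 𝓝[≠] z, ¬ P w := by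
      simpa [S, Filter.not_frequently] using hz
    have h2 : ∀ᶠ w in 𝓝 z, w ∉ S := by
      rw [eventually_nhdsWithin_iff] at h1
      filter_upwards [h1.eventually_nhds] with w hw
      by_cases hwz : w = z
      · rw [hwz]; exact hz
      · intro hwS
        have h3 := hlocal w hwS
        have h4 : ∀ᶠ y in 𝓝 w, y ≠ z := isOpen_ne.mem_nhds hwz
        obtain ⟨y, hy1, hy2, hy3⟩ := (h3.and (hw.and h4)).exists
        exact hy2 hy3 hy1
    exact h2
  obtain ⟨z₁, hz₁⟩ := h0
  have hne : z₁ ∉ S := by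
    intro h
    obtain ⟨s, hs, hs'⟩ := (hlocal z₁ h).self_of_nhds
    exact hs (hz₁ s hs')
  have hempty : S = ∅ := by
    rcases isClopen_iff.1 ⟨hclosed, hopen⟩ with h | h
    · exact h
    · exact absurd (h ▸ Set.mem_univ z₁) hne
  have h1 : z₀ ∉ S := by rw [hempty]; simp
  have h2 : ∀ᶠ z in 𝓝[≠] z₀, ¬ P z := by
    simpa [S, Filter.not_frequently] using h1
  filter_upwards [h2] with z hz s hs
  by_contra hne
  exact hz ⟨s, hne, hs⟩

end Vale.Agent.P267.H556
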