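import Vale.Agent.P267.H221.Out
import Vale.Agent.P267.H399.Calc

/-!
# P267, package CHI-NEG: the pairing of holomorphic sections of `K^κ ⊗ L` and `K^κ' ⊗ L^*`
-/

set_option linter.unusedSectionVars false

open scoped Manifold ContDiff ComplexConjugate Matrix ComplexOrder
open Set Filter Topology

noncomputable section

namespace Vale.Agent.P267.H556

open Vale.Agent.P267.FL Vale.Agent.P267.RR

/-! ### rank one projectors -/

section rankone

variable {ι : Type} [Fintype ι] [DecidableEq ι]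

/-- A Hermitian projector of trace one is determined by a nonzero vector of its range. -/
theorem proj_eq {P : Matrix ι ι ℂ} (hh : Pᴴ = P) (hi : P * P = P) (ht : P.trace = 1)
    {s : ι → ℂ} (hs : P.mulVec s = s) (hs0 : s ≠ 0) :
    (star s ⬝ᵥ s) • P = Matrix.vecMulVec s (star s) := by
  set n : ℂ := star s ⬝ᵥ s with hn
  have hn0 : n ≠ 0 := by
    intro h
    rw [hn] at h
    exact hs0 (dotProduct_star_self_eq_zero.1 h)
  have hnstar : star n = n := by
    rw [hn]
    simp only [dotProduct, star_sum, star_mul', Pi.star_apply, star_star]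
    exact Finset.sum_congr rfl fun i _ => mul_comm _ _
  have hsP : Matrix.vecMul (star s) P = star s := by
    have h1 : star (P.mulVec s) = Matrix.vecMul (star s) Pᴴ := Matrix.star_mulVec P s
    rw [hs, hh] at h1
    exact h1.symm
  -- `Q = n P - s s^*` satisfies `Q^* Q = n Q` and has trace zero
  set Q : Matrix ι ι ℂ := n • P - Matrix.vecMulVec s (star s) with hQ
  have hQh : Qᴴ = Q := by
    rw [hQ, Matrix.conjTranspose_sub, Matrix.conjTranspose_smul, hnstar, hh]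
    congr 1
    ext i j
    simp [Matrix.vecMulVec_apply, Matrix.conjTranspose_apply, mul_comm]
  have hQQ : Q * Q = n • Q := by
    have h1 : P * Matrix.vecMulVec s (star s) = Matrix.vecMulVec s (star s) := by
      rw [Matrix.mul_vecMulVec, hs]
    have h2 : Matrix.vecMulVec s (star s) * P = Matrix.vecMulVec s (star s) := by
      rw [Matrix.vecMulVec_mul, hsP]
    have h3 : Matrix.vecMulVec s (star s) * Matrix.vecMulVec s (star s) =
        n • Matrix.vecMulVec s (star s) := by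
      ext i j
      simp only [Matrix.mul_apply, Matrix.vecMulVec_apply, Matrix.smul_apply, smul_eq_mul, hn,
        dotProduct, Finset.sum_mul]
      refine Finset.sum_congr rfl fun k _ => ?_
      ring
    rw [hQ, Matrix.sub_mul, Matrix.mul_sub, Matrix.mul_sub, Matrix.smul_mul, Matrix.mul_smul, hi,
      Matrix.smul_mul, h1, Matrix.mul_smul, h2, h3, smul_sub]
    abel
  have hQt : Q.trace = 0 := by
    rw [hQ, Matrix.trace_sub, Matrix.trace_smul, ht, smul_eq_mul, mul_one,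
      Matrix.trace_vecMulVec, hn, dotProduct_comm, sub_self]
  have h0 : (Qᴴ * Q).trace = 0 := by
    rw [hQh, hQQ, Matrix.trace_smul, hQt, smul_zero]
  have h1 : Q = 0 := Matrix.trace_conjTranspose_mul_self_eq_zero_iff.1 h0
  rw [hQ, sub_eq_zero] at h1
  exact h1

theorem pair_ne_zero {P : Matrix ι ι ℂ} (hh : Pᴴ = P) (hi : P * P = P) (ht : P.trace = 1)
    {s t : ι → ℂ} (hs : P.mulVec s = s) (ht' : Pᵀ.mulVec t = t) (hs0 : s ≠ 0) (ht0 : t ≠ 0) :
    t ⬝ᵥ s ≠ 0 := by
  intro h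
  set n : ℂ := star s ⬝ᵥ s with hn
  have hn0 : n ≠ 0 := by
    intro h
    rw [hn] at h
    exact hs0 (dotProduct_star_self_eq_zero.1 h)
  have hP := proj_eq hh hi ht hs hs0
  rw [← hn] at hP
  have h1 : n • t = 0 := by
    have h2 : n • (Matrix.vecMul t P) = Matrix.vecMul t (n • P) := by
      rw [Matrix.vecMul_smul]
    have h3 : Matrix.vecMul t P = t := by
      rw [← Matrix.mulVec_transpose]; exact ht'
    rw [h3, hP] at h2
    rw [h2]
    ext j
    have h4 : Matrix.vecMul t (Matrix.vecMulVec s (star s)) j = (t ⬝ᵥ s) * star s j := by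
      simp only [Matrix.vecMul, dotProduct, Matrix.vecMulVec_apply, Finset.sum_mul]
      refine Finset.sum_congr rfl fun k _ => ?_
      ring
    rw [h4, h, zero_mul]
    rfl
  exact ht0 ((smul_eq_zero.1 h1).resolve_left hn0)

end rankone

/-! ### the pairing -/

section pairing

variable {X : Type*} [TopologicalSpace X] [ChartedSpace C2 X] [IsManifold 𝓘(ℂ, C2) ω X]
variable {ι : Type} [Fintype ι] [DecidableEq ι]

/-- the pairing `⟨t, s⟩` of a section of `L` and a section of `L^*` -/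
def pairS (t s : X → EuclideanSpace ℂ ι) (x : X) : ℂ := ∑ i, t x i * s x i

theorem loc0_pairS {κ κ' : ℤ} {e : Ch X} (he : e ∈ atlas C2 X) {z : C2} (hz : z ∈ e.target)
    (t s : X → EuclideanSpace ℂ ι) :
    loc0 (κ' + κ) e (pairS t s) z = ∑ i, loc0 κ' e t z i * loc0 κ e s z i := by
  have h := jac_det_ne_zero he (e.map_target hz)
  simp only [loc0, pairS, PiLp.smul_apply, smul_eq_mul, zpow_add₀ h, Finset.mul_sum]
  refine Finset.sum_congr rfl fun i _ => ?_
  ring

theorem reg0_comp {n : WithTop ℕ∞} {κ : ℤ} {s : X → EuclideanSpace ℂ ι} (hs : Reg0 n κ s)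
    {e : Ch X} (he : e ∈ atlas C2 X) (i : ι) :
    ContDiffOn ℝ n (fun z => loc0 κ e s z i) e.target := by
  have h := hs e he
  exact ((EuclideanSpace.proj (𝕜 := ℂ) i).restrictScalars ℝ).contDiff.comp_contDiffOn h

theorem Reg0.pairS {κ κ' : ℤ} {t s : X → EuclideanSpace ℂ ι} (ht : Reg0 ∞ κ' t)
    (hs : Reg0 ∞ κ s) : Reg0 ∞ (κ' + κ) (pairS t s) := by
  intro e he
  refine ContDiffOn.congr ?_ fun z hz => loc0_pairS he hz t s
  exact ContDiffOn.sum fun i _ => (reg0_comp ht he i).mul (reg0_comp hs he i)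

theorem dbar0_pairS {κ κ' : ℤ} {t s : X → EuclideanSpace ℂ ι} (ht : Reg0 ∞ κ' t)
    (hs : Reg0 ∞ κ s) (x : X) (j : Fin 2) :
    dbar0 (κ' + κ) (pairS t s) x j =
      ∑ i, (dbar0 κ' t x j i * s x i + t x i * dbar0 κ s x j i) := by
  set e := chartAt C2 x with he'
  have he : e ∈ atlas C2 X := chart_mem_atlas C2 x
  have hxs : e x ∈ e.target := mem_chart_target C2 x
  have h1 : loc0 (κ' + κ) e (pairS t s) =ᶠ[𝓝 (e x)]
      fun z => ∑ i, loc0 κ' e t z i * loc0 κ e s z i := by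
    filter_upwards [e.open_target.mem_nhds hxs] with z hz
    exact loc0_pairS he hz t s
  have hdt : DifferentiableAt ℝ (loc0 κ' e t) (e x) :=
    (ht.contDiffAt he hxs).differentiableAt (by simp)
  have hds : DifferentiableAt ℝ (loc0 κ e s) (e x) :=
    (hs.contDiffAt he hxs).differentiableAt (by simp)
  have hdti : ∀ i, DifferentiableAt ℝ (fun z => loc0 κ' e t z i) (e x) := fun i =>
    ((EuclideanSpace.proj (𝕜 := ℂ) i).restrictScalars ℝ).differentiableAt.comp _ hdt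
  have hdsi : ∀ i, DifferentiableAt ℝ (fun z => loc0 κ e s z i) (e x) := fun i =>
    ((EuclideanSpace.proj (𝕜 := ℂ) i).restrictScalars ℝ).differentiableAt.comp _ hds
  have hct : ∀ i, dzb j (fun z => loc0 κ' e t z i) (e x) = dbar0 κ' t x j i := fun i => by
    have := dzb_clm (EuclideanSpace.proj (𝕜 := ℂ) i) hdt j
    simpa [dbar0, ← he'] using this
  have hcs : ∀ i, dzb j (fun z => loc0 κ e s z i) (e x) = dbar0 κ s x j i := fun i => by
    have := dzb_clm (EuclideanSpace.proj (𝕜 := ℂ) i) hds j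
    simpa [dbar0, ← he'] using this
  have h2 : dbar0 (κ' + κ) (pairS t s) x j = dzb j (loc0 (κ' + κ) e (pairS t s)) (e x) := rfl
  have h3 : ∀ i ∈ Finset.univ, DifferentiableAt ℝ
      (fun z => loc0 κ' e t z i * loc0 κ e s z i) (e x) := fun i _ => (hdti i).mul (hdsi i)
  rw [h2, dzb_congr h1, dzb_sum _ h3]
  refine Finset.sum_congr rfl fun i _ => ?_
  rw [dzb_mul (hdti i) (hdsi i), hct, hcs, he', loc0_chartAt, loc0_chartAt]
  ring

/-- The pairing of holomorphic sections is holomorphic. -/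
theorem dbar0_pairS_eq_zero {κ κ' : ℤ} {L : LB X ι} {a : X → Fin 2 → ℂ}
    {t s : X → EuclideanSpace ℂ ι} (ht : t ∈ H0 L.dual (-a) κ') (hs : s ∈ H0 L a κ) :
    dbar0 (κ' + κ) (pairS t s) = 0 := by
  obtain ⟨⟨ht1, ht2⟩, ht3⟩ := (mem_H0 _ _ _).1 ht
  obtain ⟨⟨hs1, hs2⟩, hs3⟩ := (mem_H0 _ _ _).1 hs
  funext x j
  rw [dbar0_pairS ht1 hs1 x j, Finset.sum_add_distrib]
  have hs2x : (L.P x).mulVec (s x).ofLp = (s x).ofLp := congrArg (fun v => v.ofLp) (hs2 x)
  have ht2x : (L.P x)ᵀ.mulVec (t x).ofLp = (t x).ofLp := congrArg (fun v => v.ofLp) (ht2 x)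
  have hs3x : (L.P x).mulVec (dbar0 κ s x j).ofLp + a x j • (s x).ofLp = 0 := by
    have := congrFun (congrFun hs3 x) j
    exact congrArg (fun v => v.ofLp) this
  have ht3x : (L.P x)ᵀ.mulVec (dbar0 κ' t x j).ofLp + (-a) x j • (t x).ofLp = 0 := by
    have := congrFun (congrFun ht3 x) j
    exact congrArg (fun v => v.ofLp) this
  have e1 : ∑ i, dbar0 κ' t x j i * s x i = (dbar0 κ' t x j).ofLp ⬝ᵥ (s x).ofLp := rfl
  have e2 : ∑ i, t x i * dbar0 κ s x j i = (t x).ofLp ⬝ᵥ (dbar0 κ s x j).ofLp := rfl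
  have f1 : (dbar0 κ' t x j).ofLp ⬝ᵥ (s x).ofLp = a x j * ((t x).ofLp ⬝ᵥ (s x).ofLp) := by
    calc (dbar0 κ' t x j).ofLp ⬝ᵥ (s x).ofLp
        = (dbar0 κ' t x j).ofLp ⬝ᵥ (L.P x).mulVec (s x).ofLp := by rw [hs2x]
      _ = ((L.P x)ᵀ.mulVec (dbar0 κ' t x j).ofLp) ⬝ᵥ (s x).ofLp := by
          rw [Matrix.dotProduct_mulVec, ← Matrix.mulVec_transpose]
      _ = (a x j • (t x).ofLp) ⬝ᵥ (s x).ofLp := by
          rw [eq_neg_of_add_eq_zero_left ht3x]; simp
      _ = a x j * ((t x).ofLp ⬝ᵥ (s x).ofLp) := by rw [smul_dotProduct, smul_eq_mul]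
  have f2 : (t x).ofLp ⬝ᵥ (dbar0 κ s x j).ofLp = -(a x j * ((t x).ofLp ⬝ᵥ (s x).ofLp)) := by
    calc (t x).ofLp ⬝ᵥ (dbar0 κ s x j).ofLp
        = ((L.P x)ᵀ.mulVec (t x).ofLp) ⬝ᵥ (dbar0 κ s x j).ofLp := by rw [ht2x]
      _ = (t x).ofLp ⬝ᵥ ((L.P x).mulVec (dbar0 κ s x j).ofLp) := by
          rw [Matrix.dotProduct_mulVec, ← Matrix.mulVec_transpose]
      _ = (t x).ofLp ⬝ᵥ (-(a x j • (s x).ofLp)) := by
          rw [eq_neg_of_add_eq_zero_left hs3x]
      _ = -(a x j * ((t x).ofLp ⬝ᵥ (s x).ofLp)) := by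
          rw [dotProduct_neg, dotProduct_smul, smul_eq_mul]
  rw [e1, e2, f1, f2, add_neg_cancel]
  rfl

theorem pairS_ne_zero {L : LB X ι} {t s : X → EuclideanSpace ℂ ι} (ht : L.dual.Sec t)
    (hs : L.Sec s) {x : X} (ht0 : t x ≠ 0) (hs0 : s x ≠ 0) : pairS t s x ≠ 0 := by
  have hs2x : (L.P x).mulVec (s x).ofLp = (s x).ofLp := congrArg (fun v => v.ofLp) (hs x)
  have ht2x : (L.P x)ᵀ.mulVec (t x).ofLp = (t x).ofLp := congrArg (fun v => v.ofLp) (ht x)
  refine pair_ne_zero (L.herm x) (L.idem x) (L.tr x) hs2x ht2x ?_ ?_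
  · intro h; apply hs0; ext i; exact congrFun h i
  · intro h; apply ht0; ext i; exact congrFun h i

/-- If `K^(κ'+κ)` has no sections, then at every point one of the two sections vanishes. -/
theorem eq_zero_or_of_pairing {κ κ' : ℤ}
    (hK : ∀ u : X → ℂ, Reg0 ∞ (κ' + κ) u → dbar0 (κ' + κ) u = 0 → u = 0)
    {L : LB X ι} {a : X → Fin 2 → ℂ}
    {t s : X → EuclideanSpace ℂ ι} (ht : t ∈ H0 L.dual (-a) κ') (hs : s ∈ H0 L a κ) (x : X) :
    t x = 0 ∨ s x = 0 := by
  by_contra h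
  push Not at h
  have h1 := hK (pairS t s) (Reg0.pairS ((mem_H0 _ _ _).1 ht).1.1 ((mem_H0 _ _ _).1 hs).1.1)
    (dbar0_pairS_eq_zero ht hs)
  exact pairS_ne_zero ((mem_H0 _ _ _).1 ht).1.2 ((mem_H0 _ _ _).1 hs).1.2 h.1 h.2
    (congrFun h1 x)

end pairing

end Vale.Agent.P267.H556
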